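import Vale.Agent.P088.R2.H406.U.Bd

/-!
# P088, stage 3: the derivatives of the direction `(x - y) / |x - y|`
-/

open Set Filter
open scoped ContDiff Topology

noncomputable section

namespace Vale.Agent.P088.R2.H406.U

open Vale.Agent.P088.LR Vale.Agent.P088.HY
open Vale.Agent.P088.R2.H644
open Vale.Agent.P088.R2.H406.Z
open Vale.Agent.P088.R2.H406.C (mb)

variable {n : ℕ}

/-- The direction of `x - y`. -/
def hq (j : Fin n) (z : VV n) : ℝ := (√(qq z))⁻¹ * qv j z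

theorem abs_qv (i : Fin n) (z : VV n) : |qv i z| ≤ √(qq z) := by
  rw [← Real.sqrt_sq_eq_abs]
  refine Real.sqrt_le_sqrt ?_
  rw [qq_eq]
  exact Finset.single_le_sum (f := fun i => qv i z ^ 2) (fun j _ => sq_nonneg _)
    (Finset.mem_univ i)

theorem hd_is {s : ℝ} (hs : 0 < s) :
    HasDerivAt (fun s => (√s)⁻¹) (-(1 / (2 * √s)) / (√s) ^ 2) s :=
  (Real.hasDerivAt_sqrt hs.ne').inv (Real.sqrt_pos.2 hs).ne'

theorem abs_v {v : VV n} (hv : v ∈ Dir n) (j : Fin n) : |v.1 j - v.2 j| ≤ 1 := by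
  obtain ⟨i, rfl | rfl⟩ := hv
  · simp only [Pi.single_apply, Pi.zero_apply, sub_zero]
    split_ifs <;> norm_num
  · simp only [Pi.single_apply, Pi.zero_apply, zero_sub, abs_neg]
    split_ifs <;> norm_num

theorem abs_dqq {v : VV n} (hv : v ∈ Dir n) (z : VV n) : |dd v qq z| ≤ 2 * √(qq z) := by
  obtain ⟨i, rfl | rfl⟩ := hv
  · rw [← dx_eq, dx_qq, abs_mul, abs_of_pos (by norm_num : (0 : ℝ) < 2)]
    linarith [abs_qv i z]
  · rw [← dy_eq, dy_qq, abs_mul, abs_of_neg (by norm_num : (-2 : ℝ) < 0)]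
    linarith [abs_qv i z]

/-- `|D_v h| ≤ 2 / |x - y|`. -/
theorem dhq_le {z v : VV n} (hz : 0 < qq z) (hv : v ∈ Dir n) (j : Fin n) :
    |dd v (hq j) z| ≤ 2 * (√(qq z))⁻¹ := by
  have s0 : 0 < √(qq z) := Real.sqrt_pos.2 hz
  have h := (HD.rad (v := v) (hd_is hz)).mul (HD.qv v z j)
  have e : dd v (hq j) z = -(1 / (2 * √(qq z))) / (√(qq z)) ^ 2 * dd v qq z * qv j z +
      (√(qq z))⁻¹ * (v.1 j - v.2 j) := h.e
  rw [e]
  have h1 : |-(1 / (2 * √(qq z))) / (√(qq z)) ^ 2| = 1 / (2 * √(qq z)) / (√(qq z)) ^ 2 := by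
    rw [abs_div, abs_neg, abs_of_pos (by positivity), abs_of_pos (by positivity)]
  have h2 : |-(1 / (2 * √(qq z))) / (√(qq z)) ^ 2 * dd v qq z * qv j z| ≤
      1 / (2 * √(qq z)) / (√(qq z)) ^ 2 * (2 * √(qq z)) * √(qq z) :=
    mb (mb h1.le (abs_dqq hv z)) (abs_qv j z)
  have h3 : |(√(qq z))⁻¹ * (v.1 j - v.2 j)| ≤ (√(qq z))⁻¹ * 1 :=
    mb (abs_of_pos (inv_pos.2 s0)).le (abs_v hv j)
  refine (ab2 h2 h3).trans (le_of_eq ?_)
  field_simp
  ring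

end Vale.Agent.P088.R2.H406.U
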